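import Vale.Agent.P317.Run

namespace Vale.Agent.Results.P317.FPRAS

open Vale.Agent.P317

theorem result : ∃ (ask num den : List Bool → List Bool) (P : Polynomial ℕ),
    PolyTime ask ∧ PolyTime num ∧ PolyTime den ∧
    ∀ (n : ℕ) (M₁ M₂ : Matroid (Fin n)), M₁.E = Set.univ → M₂.E = Set.univ →
      M₁.eRank = M₂.eRank → ∀ ε δ : ℚ, 0 < ε → ε < 1 → 0 < δ → δ < 1 →
      ∀ k l m : ℕ, k = ⌈1 / ε⌉₊ → l = Nat.clog 2 ⌈1 / δ⌉₊ → m = P.eval (n + k + l) →
        (1 - δ) * 2 ^ m ≤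
          ({ρ : Fin m → Bool | Approx ε (commonBases M₁ M₂)
            (num (input n k l (List.ofFn ρ) ++ answers M₁ M₂ ask (input n k l (List.ofFn ρ)) m))
            (den (input n k l (List.ofFn ρ) ++
              answers M₁ M₂ ask (input n k l (List.ofFn ρ)) m))}.ncard : ℚ) := by
  obtain ⟨P, hP⟩ := fpras
  refine ⟨askF, numF, denF, P, poly_ask, poly_num, poly_den, ?_⟩
  intro n M₁ M₂ h1 _ h3 ε δ e0 _ d0 _ k l m hk hl hm
  have k1 : 1 / ε ≤ k := hk ▸ Nat.le_ceil _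
  have k0 : (0 : ℚ) < k := lt_of_lt_of_le (by positivity) k1
  have k2 : 1 / (k : ℚ) ≤ ε := by
    rw [div_le_iff₀ k0]; rw [div_le_iff₀ e0] at k1; linarith
  have l1 : 1 / δ ≤ 2 ^ l := by
    have : ⌈1 / δ⌉₊ ≤ 2 ^ l := hl ▸ Nat.le_pow_clog (by norm_num) _
    exact (Nat.le_ceil _).trans (by exact_mod_cast this)
  have l2 : 1 / 2 ^ l ≤ δ := by
    rw [div_le_iff₀ (by positivity)]; rw [div_le_iff₀ d0] at l1; linarith
  have l3 : (1 / 2 ^ l : ℝ) ≤ δ := by simpa using (Rat.cast_le (K := ℝ)).2 l2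
  have := hP n M₁ M₂ h1 h3 k l ε (by exact_mod_cast k0) k2
  subst hm
  refine (Rat.cast_le (K := ℝ)).1 ?_
  push_cast
  exact le_trans (mul_le_mul_of_nonneg_right (by linarith) (by positivity)) this

end Vale.Agent.Results.P317.FPRAS
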